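import Vale.Agent.P141.R2.H860.Nil

/-!
# Measurability of the factors
-/

namespace Vale.Agent.P141.R2.H860

open MeasureTheory Set

variable {d : ℕ} {Y : Type*} [MeasurableSpace Y]

theorem zz_meas (θ : Fin d → ℝ) (j : Fin d → ℤ) {a : Y → ℝ} (ha : Measurable a)
    (i : Fin (d + 1)) : Measurable fun y => zz θ j (a y) i := by
  refine Fin.cases ?_ (fun i => ?_) i
  · simpa [zz] using ha
  · simp only [zz, Fin.cons_succ]
    have h1 : Measurable fun y => ((⌊θ i * a y⌋ : ℤ) : ℝ) := by
      have : Measurable fun y => ⌊θ i * a y⌋ := Int.measurable_floor.comp (ha.const_mul _)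
      exact measurable_from_top.comp this
    exact h1.add_const _

theorem quad_meas {m : ℕ} (Q : Fin m → Fin m → ℝ) (l : Fin m → ℝ) (c : ℝ) {u : Y → Fin m → ℝ}
    (hu : ∀ i, Measurable fun y => u y i) : Measurable fun y => quad Q l c (u y) := by
  unfold quad
  refine Measurable.add_const (Measurable.add ?_ ?_) _
  · exact Finset.measurable_sum _ fun i _ => Finset.measurable_sum _ fun j _ =>
      ((hu i).const_mul _).mul (hu j)
  · exact Finset.measurable_sum _ fun i _ => (hu i).const_mul _

theorem cross_meas {m : ℕ} (Q : Fin m → Fin m → ℝ) {u v : Y → Fin m → ℝ}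
    (hu : ∀ i, Measurable fun y => u y i) (hv : ∀ i, Measurable fun y => v y i) :
    Measurable fun y => cross Q (u y) (v y) := by
  unfold cross
  exact Finset.measurable_sum _ fun i _ => Finset.measurable_sum _ fun j _ =>
    (((hu i).mul (hv j)).add ((hv i).mul (hu j))).const_mul _

theorem coord_meas {x : Y → EuclideanSpace ℝ (Fin d)} (hx : Measurable x) (i : Fin d) :
    Measurable fun y => x y i := by
  have h : Measurable fun v : EuclideanSpace ℝ (Fin d) => v i :=
    (EuclideanSpace.proj (𝕜 := ℝ) i).continuous.measurable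
  exact h.comp hx

theorem W0_meas (θ : Fin d → ℝ) (Q : Fin (d + 1) → Fin (d + 1) → ℝ) (l : Fin (d + 1) → ℝ) (c : ℝ)
    (j : Fin d → ℤ) {x : Y → EuclideanSpace ℝ (Fin d)} {a b : Y → ℝ} (hx : Measurable x)
    (ha : Measurable a) (hb : Measurable b) :
    Measurable fun y => W0 θ Q l c j (x y) (a y) (b y) := by
  unfold W0
  refine continuous_ee.measurable.comp (Measurable.add ?_ (Measurable.add ?_ ?_))
  · exact Finset.measurable_sum _ fun i _ => (coord_meas hx i).mul
      ((measurable_fract.comp (ha.const_mul _)).sub_const _)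
  · exact quad_meas Q l c fun i => zz_meas θ j ha i
  · exact cross_meas Q (fun i => zz_meas θ j ha i) fun i => zz_meas θ 0 hb i

theorem W1_meas (θ : Fin d → ℝ) (Q : Fin (d + 1) → Fin (d + 1) → ℝ) (l : Fin (d + 1) → ℝ)
    {x : Y → EuclideanSpace ℝ (Fin d)} {a b : Y → ℝ} (hx : Measurable x)
    (ha : Measurable a) (hb : Measurable b) :
    Measurable fun y => W1 θ Q l (x y) (a y) (b y) := by
  unfold W1
  refine continuous_ee.measurable.comp (Measurable.add ?_ (Measurable.add ?_ ?_))
  · exact Finset.measurable_sum _ fun i _ => (coord_meas hx i).mul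
      (measurable_fract.comp (ha.const_mul _))
  · exact quad_meas Q l 0 fun i => zz_meas θ 0 ha i
  · exact cross_meas Q (fun i => zz_meas θ 0 ha i) fun i => zz_meas θ 0 hb i

theorem W2_meas (θ : Fin d → ℝ) (Q : Fin (d + 1) → Fin (d + 1) → ℝ) (l : Fin (d + 1) → ℝ)
    (j : Fin d → ℤ) {x : Y → EuclideanSpace ℝ (Fin d)} {a b : Y → ℝ} (hx : Measurable x)
    (ha : Measurable a) (hb : Measurable b) :
    Measurable fun y => W2 θ Q l j (x y) (a y) (b y) := by
  unfold W2
  refine continuous_ee.measurable.comp (Measurable.add ?_ (Measurable.add ?_ ?_))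
  · exact Finset.measurable_sum _ fun i _ => (coord_meas hx i).mul
      (measurable_fract.comp (ha.const_mul _))
  · exact quad_meas Q l 0 fun i => zz_meas θ 0 ha i
  · exact cross_meas Q (fun i => zz_meas θ 0 ha i) fun i => zz_meas θ j hb i

end Vale.Agent.P141.R2.H860
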