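import Vale.Agent.P141.R2.H860.NilForm

/-!
# The form bound for all functions which split
-/

namespace Vale.Agent.P141.R2.H860

open MeasureTheory Set Filter Topology Vale.Agent.P141.H97 Vale.Agent.P141.R2.H152
open scoped ContDiff

set_option linter.unusedSectionVars false

variable {κ ι : Type} [Fintype κ]

/-- first structured factor -/
def a1 (V : EuclideanSpace ℝ κ → ℝ → ℝ → ℂ) (ξ : EuclideanSpace ℝ κ) (z : ℝ × ℝ × ℝ) : ℂ :=
  V ξ (-z.2.1) (z.1 + z.2.1)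

/-- second structured factor -/
def a2 (W : EuclideanSpace ℝ κ → ℝ → ℝ → ℂ) (ξ : EuclideanSpace ℝ κ) (z : ℝ × ℝ × ℝ) : ℂ :=
  W ξ (z.1 + z.2.1) (-z.2.1)

/-- third structured factor -/
def a3 (U : EuclideanSpace ℝ κ → ℝ → ℝ → ℂ) (ξ : EuclideanSpace ℝ κ) (z : ℝ × ℝ × ℝ) : ℂ :=
  U ξ (-z.2.1) (-z.2.2)

variable {U V W : EuclideanSpace ℝ κ → ℝ → ℝ → ℂ}

theorem one_a1 (hV : Un V) (ξ : EuclideanSpace ℝ κ) : One (a1 V ξ) :=
  ⟨hV.meas.comp (g := fun p : EuclideanSpace ℝ κ × ℝ × ℝ => V p.1 p.2.1 p.2.2)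
    (f := fun z : ℝ × ℝ × ℝ => (ξ, -z.2.1, z.1 + z.2.1)) (by fun_prop), fun _ => hV.le _ _ _⟩

theorem one_a2 (hW : Un W) (ξ : EuclideanSpace ℝ κ) : One (a2 W ξ) :=
  ⟨hW.meas.comp (g := fun p : EuclideanSpace ℝ κ × ℝ × ℝ => W p.1 p.2.1 p.2.2)
    (f := fun z : ℝ × ℝ × ℝ => (ξ, z.1 + z.2.1, -z.2.1)) (by fun_prop), fun _ => hW.le _ _ _⟩

theorem one_a3 (hU : Un U) (ξ : EuclideanSpace ℝ κ) : One (a3 U ξ) :=
  ⟨hU.meas.comp (g := fun p : EuclideanSpace ℝ κ × ℝ × ℝ => U p.1 p.2.1 p.2.2)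
    (f := fun z : ℝ × ℝ × ℝ => (ξ, -z.2.1, -z.2.2)) (by fun_prop), fun _ => hU.le _ _ _⟩

/-- the product of the three factors -/
theorem GG_abs (ξ : EuclideanSpace ℝ κ) (x : ℝ) (h : ℝ × ℝ × ℝ) :
    GG (a1 V ξ) (a2 W ξ) (a3 U ξ) x h
      = U ξ (-h.1) (-h.2.1) * V ξ (-h.2.1) (x + h.1 + h.2.1) *
        W ξ (x + h.1 + h.2.1) (-h.1) := by
  unfold GG a1 a2 a3
  simp only
  rw [show x + h.2.1 + h.1 = x + h.1 + h.2.1 by ring]
  ring

theorem GG_abs_meas (hU : Un U) (hV : Un V) (hW : Un W) :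
    Measurable fun y : EuclideanSpace ℝ κ × E5 =>
      GG (a1 V y.1) (a2 W y.1) (a3 U y.1) y.2.1.1 y.2.2 := by
  simp only [GG_abs]
  refine Measurable.mul (Measurable.mul ?_ ?_) ?_
  · exact hU.meas.comp (g := fun p : EuclideanSpace ℝ κ × ℝ × ℝ => U p.1 p.2.1 p.2.2)
      (f := fun y : EuclideanSpace ℝ κ × E5 => (y.1, -y.2.2.1, -y.2.2.2.1)) (by fun_prop)
  · exact hV.meas.comp (g := fun p : EuclideanSpace ℝ κ × ℝ × ℝ => V p.1 p.2.1 p.2.2)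
      (f := fun y : EuclideanSpace ℝ κ × E5 =>
        (y.1, -y.2.2.2.1, y.2.1.1 + y.2.2.1 + y.2.2.2.1)) (by fun_prop)
  · exact hW.meas.comp (g := fun p : EuclideanSpace ℝ κ × ℝ × ℝ => W p.1 p.2.1 p.2.2)
      (f := fun y : EuclideanSpace ℝ κ × E5 =>
        (y.1, y.2.1.1 + y.2.2.1 + y.2.2.2.1, -y.2.2.1)) (by fun_prop)

/-- **the form bound for a function which splits** -/
theorem abs_form : ∃ C : ℝ, 0 ≤ C ∧ ∀ (κ ι : Type) [Fintype κ] (J : Finset ι)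
    (ψ : EuclideanSpace ℝ κ → ℂ) (U V W : ι → EuclideanSpace ℝ κ → ℝ → ℝ → ℂ) (h : ℝ → ℂ),
    Integrable ψ volume → (∀ j, Un (U j)) → (∀ j, Un (V j)) → (∀ j, Un (W j)) →
    (∀ A B C : ℝ, h (A + B + C) = ∑ j ∈ J, ∫ ξ, ψ ξ * (U j ξ A B * V j ξ B C * W j ξ C A)) →
    ∀ (c₁ c₂ c₃ : ℝ) (f₁ f₂ f₃ : ℝ → ℂ), c₁ ≠ 0 → c₂ ≠ 0 → c₃ ≠ 0 → c₂ ≠ c₃ →
      Nice f₁ → Nice f₂ → Nice f₃ → ∀ ε R : ℝ, 0 < ε → ε < R →
      ‖∫ p : ℝ × ℝ, h p.1 * ph ε R c₁ c₂ c₃ f₁ f₂ f₃ p.1 p.2‖ ≤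
        ((J.card : ℝ) * ∫ ξ, ‖ψ ξ‖) * C * |c₁ * c₂ * c₃| ^ ((1 : ℝ) / 3) *
          (|c₁|⁻¹ + |c₂|⁻¹ + |c₃|⁻¹) *
          ((eLpNorm f₁ 3 volume).toReal * (eLpNorm f₂ 3 volume).toReal *
            (eLpNorm f₃ 3 volume).toReal) := by
  obtain ⟨C, hC0, hC⟩ := form
  refine ⟨C, hC0, ?_⟩
  intro κ ι _ J ψ U V W h hψ hU hV hW hsp c₁ c₂ c₃ f₁ f₂ f₃ n₁ n₂ n₃ n h₁ h₂ h₃ ε R hε hR
  have hI0 : 0 ≤ ∫ ξ, ‖ψ ξ‖ := integral_nonneg fun _ => norm_nonneg _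
  set P : ℝ := (eLpNorm f₁ 3 volume).toReal * (eLpNorm f₂ 3 volume).toReal *
    (eLpNorm f₃ 3 volume).toReal with hP
  have hP0 : 0 ≤ P := by positivity
  set S : ℝ := |c₁|⁻¹ + |c₂|⁻¹ + |c₃|⁻¹ with hS
  set lam : ℝ := |c₁ * c₂ * c₃| ^ ((1 : ℝ) / 3) with hκ
  have hκ0 : 0 ≤ lam := by positivity
  have hS0 : 0 ≤ S := by positivity
  set X : ℂ := ∫ p : ℝ × ℝ, h p.1 * ph ε R c₁ c₂ c₃ f₁ f₂ f₃ p.1 p.2 with hX
  have hR0 : 0 < R := hε.trans hR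
  -- the bound at scale `H`
  have main : ∀ H : ℝ, 0 < H → ‖X‖ ≤ (J.card : ℝ) * ((∫ ξ, ‖ψ ξ‖) * (C * lam * (R / H + S) * P)) := by
    intro H hH
    set D : ι → EuclideanSpace ℝ κ → ℂ := fun j ξ =>
      ∫ p : ℝ × ℝ, dualFn H (a1 (V j) ξ) (a2 (W j) ξ) (a3 (U j) ξ) p.1 *
        ph ε R c₁ c₂ c₃ f₁ f₂ f₃ p.1 p.2 with hD
    set F : ι → EuclideanSpace ℝ κ → E5 → ℂ := fun j ξ z =>
      ψ ξ * Wf ε R H c₁ c₂ c₃ (a1 (V j) ξ) (a2 (W j) ξ) (a3 (U j) ξ) f₁ f₂ f₃ z with hF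
    have hFi : ∀ j, Integrable (fun y : EuclideanSpace ℝ κ × E5 => F j y.1 y.2)
        ((volume : Measure (EuclideanSpace ℝ κ)).prod (volume : Measure E5)) := by
      intro j
      have h5 := (ph_integrable (R := R) (c₁ := c₁) (c₂ := c₂) (c₃ := c₃) hε h₁ h₂ h₃).mul_prod
        (qqq_int H)
      rw [← Measure.volume_eq_prod] at h5
      have h6 := hψ.mul_prod h5
      have hm : AEStronglyMeasurable (fun y : EuclideanSpace ℝ κ × E5 => F j y.1 y.2)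
          ((volume : Measure (EuclideanSpace ℝ κ)).prod (volume : Measure E5)) := by
        refine (hψ.aestronglyMeasurable.comp_fst).mul ?_
        have m1 : Measurable fun y : EuclideanSpace ℝ κ × E5 =>
            ph ε R c₁ c₂ c₃ f₁ f₂ f₃ y.2.1.1 y.2.1.2 :=
          (ph_meas h₁.meas h₂.meas h₃.meas).comp (measurable_fst.comp measurable_snd)
        have m2 : Measurable fun y : EuclideanSpace ℝ κ × E5 => qqq H y.2.2 :=
          (qqq_meas H).comp (measurable_snd.comp measurable_snd)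
        exact (m1.mul (m2.mul (GG_abs_meas (hU j) (hV j) (hW j)))).aestronglyMeasurable
      refine h6.mono hm (ae_of_all _ fun y => ?_)
      simp only [hF, Wf, norm_mul]
      refine mul_le_mul_of_nonneg_left ?_ (norm_nonneg _)
      refine mul_le_mul_of_nonneg_left ?_ (norm_nonneg _)
      exact mul_le_of_le_one_right (norm_nonneg _)
        (GG_le (one_a1 (hV j) y.1) (one_a2 (hW j) y.1) (one_a3 (hU j) y.1) _ _)
    have e1 : ∀ j, ∫ ξ, ψ ξ * (((H ^ 3 : ℝ) : ℂ) * D j ξ) = ∫ z : E5, ∫ ξ, F j ξ z := by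
      intro j
      rw [← integral_integral_swap (f := F j) (hFi j)]
      refine integral_congr_ae (ae_of_all _ fun ξ => ?_)
      simp only [hF, hD]
      rw [integral_const_mul, Wf_eq hε hH (one_a1 (hV j) ξ) (one_a2 (hW j) ξ)
        (one_a3 (hU j) ξ) h₁ h₂ h₃]
    have e2 : ∀ z : E5, ∑ j ∈ J, ∫ ξ, F j ξ z
        = (h z.1.1 * ph ε R c₁ c₂ c₃ f₁ f₂ f₃ z.1.1 z.1.2) * qqq H z.2 := by
      intro z
      have e3 := hsp (-z.2.1) (-z.2.2.1) (z.1.1 + z.2.1 + z.2.2.1)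
      rw [show -z.2.1 + -z.2.2.1 + (z.1.1 + z.2.1 + z.2.2.1) = z.1.1 by ring] at e3
      rw [e3, mul_assoc, Finset.sum_mul]
      refine Finset.sum_congr rfl fun j _ => ?_
      rw [← integral_mul_const]
      refine integral_congr_ae (ae_of_all _ fun ξ => ?_)
      simp only [hF, Wf]
      rw [GG_abs]
      ring
    have e4 : ((H ^ 3 : ℝ) : ℂ) * X = ∑ j ∈ J, ∫ ξ, ψ ξ * (((H ^ 3 : ℝ) : ℂ) * D j ξ) := by
      have hi : ∀ j ∈ J, Integrable (fun z : E5 => ∫ ξ, F j ξ z) volume :=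
        fun j _ => (hFi j).integral_prod_right
      calc ((H ^ 3 : ℝ) : ℂ) * X
          = ∫ z : E5, (h z.1.1 * ph ε R c₁ c₂ c₃ f₁ f₂ f₃ z.1.1 z.1.2) *
              qqq H z.2 := by
            rw [hX, ← qqq_integral hH, mul_comm]
            exact (integral_prod_mul (μ := (volume : Measure (ℝ × ℝ)))
              (ν := (volume : Measure (ℝ × ℝ × ℝ)))
              (fun p : ℝ × ℝ => h p.1 * ph ε R c₁ c₂ c₃ f₁ f₂ f₃ p.1 p.2)
              (fun y => qqq H y)).symm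
        _ = ∫ z : E5, ∑ j ∈ J, ∫ ξ, F j ξ z := by
            simp only [e2]
        _ = ∑ j ∈ J, ∫ z : E5, ∫ ξ, F j ξ z := integral_finsetSum _ hi
        _ = _ := by
            refine Finset.sum_congr rfl fun j _ => ?_
            rw [e1]
    have hH3 : 0 < H ^ 3 := pow_pos hH 3
    have e5 : X = ∑ j ∈ J, ∫ ξ, ψ ξ * D j ξ := by
      have hne : ((H ^ 3 : ℝ) : ℂ) ≠ 0 := by exact_mod_cast hH3.ne'
      apply mul_left_cancel₀ hne
      rw [e4, Finset.mul_sum]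
      refine Finset.sum_congr rfl fun j _ => ?_
      rw [← integral_const_mul]
      refine integral_congr_ae (ae_of_all _ fun ξ => ?_)
      simp only
      ring
    rw [e5]
    refine (norm_sum_le _ _).trans ?_
    have e6 : ∀ j ∈ J, ‖∫ ξ, ψ ξ * D j ξ‖ ≤ (∫ ξ, ‖ψ ξ‖) * (C * lam * (R / H + S) * P) := by
      intro j _
      have e7 : ∀ ξ, ‖D j ξ‖ ≤ C * lam * (R / H + S) * P := by
        intro ξ
        have := hC H c₁ c₂ c₃ _ _ _ f₁ f₂ f₃ hH n₁ n₂ n₃ n (one_a1 (hV j) ξ) (one_a2 (hW j) ξ)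
          (one_a3 (hU j) ξ) h₁ h₂ h₃ ε R hε hR
        rw [show R / H + S = R / H + |c₁|⁻¹ + |c₂|⁻¹ + |c₃|⁻¹ by rw [hS]; ring]
        exact this
      calc ‖∫ ξ, ψ ξ * D j ξ‖ ≤ ∫ ξ, ‖ψ ξ‖ * (C * lam * (R / H + S) * P) := by
            refine norm_integral_le_of_norm_le (hψ.norm.mul_const _) (ae_of_all _ fun ξ => ?_)
            rw [norm_mul]
            exact mul_le_mul_of_nonneg_left (e7 ξ) (norm_nonneg _)
        _ = _ := integral_mul_const _ _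
    refine (Finset.sum_le_sum e6).trans ?_
    rw [Finset.sum_const, nsmul_eq_mul]
  -- the limit `H → ∞`
  have hlim : Tendsto (fun H : ℝ => (J.card : ℝ) * ((∫ ξ, ‖ψ ξ‖) * (C * lam * (R / H + S) * P)))
      atTop (𝓝 ((J.card : ℝ) * ((∫ ξ, ‖ψ ξ‖) * (C * lam * (0 + S) * P)))) := by
    have h0 : Tendsto (fun H : ℝ => R / H) atTop (𝓝 0) :=
      tendsto_const_nhds.div_atTop tendsto_id
    exact (((((h0.add_const S).const_mul (C * lam)).mul_const P).const_mul _).const_mul _)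
  have hfin := ge_of_tendsto hlim (eventually_atTop.2 ⟨1, fun H hH => main H (by linarith)⟩)
  calc ‖X‖ ≤ _ := hfin
    _ = _ := by ring

end Vale.Agent.P141.R2.H860
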