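import Vale.Agent.P141.R2.H860.Abs

/-!
# Splitting of double sums: smooth two-step nilsequences
-/

namespace Vale.Agent.P141.R2.H860

open MeasureTheory Set Filter Topology
open scoped ContDiff FourierTransform

/-- Fourier representation of a smooth function with compact support, any finite index type -/
theorem fourier_rep' {κ : Type} [Fintype κ] (φ : (κ → ℝ) → ℂ) (h1 : ContDiff ℝ ∞ φ)
    (h2 : HasCompactSupport φ) :
    ∃ ψ : EuclideanSpace ℝ κ → ℂ, Integrable ψ volume ∧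
      ∀ u : κ → ℝ, φ u = ∫ ξ, ψ ξ * ee (∑ i, ξ i * u i) := by
  let L : EuclideanSpace ℝ κ ≃L[ℝ] (κ → ℝ) := EuclideanSpace.equiv κ ℝ
  have hf1 : ContDiff ℝ ∞ (φ ∘ L) := h1.comp L.contDiff
  have hf2 : HasCompactSupport (φ ∘ L) := h2.comp_homeomorph L.toHomeomorph
  let f : SchwartzMap (EuclideanSpace ℝ κ) ℂ := hf2.toSchwartzMap hf1
  have hfc : ∀ v, f v = φ (L v) := fun v => rfl
  let g : SchwartzMap (EuclideanSpace ℝ κ) ℂ := 𝓕 f
  have hg : (g : EuclideanSpace ℝ κ → ℂ) = 𝓕 (f : EuclideanSpace ℝ κ → ℂ) :=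
    SchwartzMap.fourier_coe f
  refine ⟨g, g.integrable, fun u => ?_⟩
  have hinv : 𝓕⁻ (𝓕 (f : EuclideanSpace ℝ κ → ℂ)) = f :=
    Continuous.fourierInv_fourier_eq f.continuous f.integrable (by
      rw [← hg]; exact g.integrable)
  have h3 := congrFun hinv (L.symm u)
  rw [hfc, L.apply_symm_apply] at h3
  rw [← h3, Real.fourierInv_eq']
  refine integral_congr_ae (Filter.Eventually.of_forall fun ξ => ?_)
  simp only [smul_eq_mul]
  rw [hg, mul_comm]
  congr 1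
  unfold ee
  congr 1
  have h4 : inner ℝ ξ (L.symm u) = ∑ i, ξ i * u i := by
    rw [PiLp.inner_apply]
    refine Finset.sum_congr rfl fun i _ => ?_
    simp [L, mul_comm]
  rw [h4]
  push_cast
  ring

variable {d m : ℕ}

/-- the vector `(A, ⌊θ A + θ₀⌋ + j)` -/
noncomputable def zs (θ θ₀ : Fin d → ℝ) (j : Fin d → ℤ) (A : ℝ) : Fin (d + 1) → ℝ :=
  Fin.cons A fun i => (⌊θ i * A + θ₀ i⌋ : ℝ) + (j i : ℝ)

section defs

variable (θ θ₀ : Fin d → ℝ) (Q : Fin m → Fin (d + 1) → Fin (d + 1) → ℝ)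
  (l : Fin m → Fin (d + 1) → ℝ) (c : Fin m → ℝ)

/-- part of the quadratic polynomials which depends on `A`, `B` -/
noncomputable def XX (j : Fin d → ℤ) (r : Fin m) (A B : ℝ) : ℝ :=
  quad (Q r) (l r) (c r) (zs θ θ₀ j A) + cross (Q r) (zs θ θ₀ j A) (zz θ 0 B)

/-- part of the quadratic polynomials which depends on `B`, `C` -/
noncomputable def YY (r : Fin m) (B C : ℝ) : ℝ :=
  quad (Q r) (l r) 0 (zz θ 0 B) + cross (Q r) (zz θ 0 B) (zz θ 0 C)

/-- part of the quadratic polynomials which depends on `C`, `A` -/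
noncomputable def ZZ (j : Fin d → ℤ) (r : Fin m) (C A : ℝ) : ℝ :=
  quad (Q r) (l r) 0 (zz θ 0 C) + cross (Q r) (zz θ 0 C) (zs θ θ₀ j A)

/-- first factor -/
noncomputable def UU (p : (Fin d → ℤ) × (Fin m → ℤ)) (ξ : EuclideanSpace ℝ (Fin d ⊕ Fin m))
    (A B : ℝ) : ℂ :=
  ee (∑ a, ξ (Sum.inl a) * (Int.fract (θ a * A + θ₀ a) - (p.1 a : ℝ)) +
    ∑ r, ξ (Sum.inr r) * (Int.fract (XX θ θ₀ Q l c p.1 r A B) - (p.2 r : ℝ)))

/-- second factor -/
noncomputable def VV (_ : (Fin d → ℤ) × (Fin m → ℤ)) (ξ : EuclideanSpace ℝ (Fin d ⊕ Fin m))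
    (B C : ℝ) : ℂ :=
  ee (∑ a, ξ (Sum.inl a) * Int.fract (θ a * B) + ∑ r, ξ (Sum.inr r) * Int.fract (YY θ Q l r B C))

/-- third factor -/
noncomputable def WW (p : (Fin d → ℤ) × (Fin m → ℤ)) (ξ : EuclideanSpace ℝ (Fin d ⊕ Fin m))
    (C A : ℝ) : ℂ :=
  ee (∑ a, ξ (Sum.inl a) * Int.fract (θ a * C) +
    ∑ r, ξ (Sum.inr r) * Int.fract (ZZ θ θ₀ Q l p.1 r C A))

end defs

section meas

variable {Y : Type*} [MeasurableSpace Y]

theorem zs_meas (θ θ₀ : Fin d → ℝ) (j : Fin d → ℤ) {a : Y → ℝ} (ha : Measurable a)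
    (i : Fin (d + 1)) : Measurable fun y => zs θ θ₀ j (a y) i := by
  refine Fin.cases ?_ (fun i => ?_) i
  · simpa [zs] using ha
  · simp only [zs, Fin.cons_succ]
    have h1 : Measurable fun y => ((⌊θ i * a y + θ₀ i⌋ : ℤ) : ℝ) := by
      have : Measurable fun y => ⌊θ i * a y + θ₀ i⌋ :=
        Int.measurable_floor.comp ((ha.const_mul _).add_const _)
      exact measurable_from_top.comp this
    exact h1.add_const _

theorem coord_meas' {κ : Type} [Fintype κ] {x : Y → EuclideanSpace ℝ κ} (hx : Measurable x)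
    (i : κ) : Measurable fun y => x y i := by
  have h : Measurable fun v : EuclideanSpace ℝ κ => v i :=
    (EuclideanSpace.proj (𝕜 := ℝ) i).continuous.measurable
  exact h.comp hx

variable (θ θ₀ : Fin d → ℝ) (Q : Fin m → Fin (d + 1) → Fin (d + 1) → ℝ)
  (l : Fin m → Fin (d + 1) → ℝ) (c : Fin m → ℝ)

theorem un_UU (p : (Fin d → ℤ) × (Fin m → ℤ)) : Un (UU θ θ₀ Q l c p) := by
  refine ⟨?_, fun _ _ _ => (norm_ee _).le⟩
  unfold UU
  refine continuous_ee.measurable.comp (Measurable.add ?_ ?_)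
  · exact Finset.measurable_sum _ fun i _ => (coord_meas' measurable_fst _).mul
      ((measurable_fract.comp (by fun_prop)).sub_const _)
  · refine Finset.measurable_sum _ fun i _ => (coord_meas' measurable_fst _).mul
      ((measurable_fract.comp ?_).sub_const _)
    unfold XX
    exact (quad_meas _ _ _ fun i => zs_meas θ θ₀ _ (by fun_prop) i).add
      (cross_meas _ (fun i => zs_meas θ θ₀ _ (by fun_prop) i) fun i => zz_meas θ 0 (by fun_prop) i)

theorem un_VV (p : (Fin d → ℤ) × (Fin m → ℤ)) : Un (VV θ Q l p) := by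
  refine ⟨?_, fun _ _ _ => (norm_ee _).le⟩
  unfold VV
  refine continuous_ee.measurable.comp (Measurable.add ?_ ?_)
  · exact Finset.measurable_sum _ fun i _ => (coord_meas' measurable_fst _).mul
      (measurable_fract.comp (by fun_prop))
  · refine Finset.measurable_sum _ fun i _ => (coord_meas' measurable_fst _).mul
      (measurable_fract.comp ?_)
    unfold YY
    exact (quad_meas _ _ _ fun i => zz_meas θ 0 (by fun_prop) i).add
      (cross_meas _ (fun i => zz_meas θ 0 (by fun_prop) i) fun i => zz_meas θ 0 (by fun_prop) i)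

theorem un_WW (p : (Fin d → ℤ) × (Fin m → ℤ)) : Un (WW θ θ₀ Q l p) := by
  refine ⟨?_, fun _ _ _ => (norm_ee _).le⟩
  unfold WW
  refine continuous_ee.measurable.comp (Measurable.add ?_ ?_)
  · exact Finset.measurable_sum _ fun i _ => (coord_meas' measurable_fst _).mul
      (measurable_fract.comp (by fun_prop))
  · refine Finset.measurable_sum _ fun i _ => (coord_meas' measurable_fst _).mul
      (measurable_fract.comp ?_)
    unfold ZZ
    exact (quad_meas _ _ _ fun i => zz_meas θ 0 (by fun_prop) i).add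
      (cross_meas _ (fun i => zz_meas θ 0 (by fun_prop) i) fun i => zs_meas θ θ₀ _ (by fun_prop) i)

end meas

section split

variable (θ θ₀ : Fin d → ℝ) (Q : Fin m → Fin (d + 1) → Fin (d + 1) → ℝ)
  (l : Fin m → Fin (d + 1) → ℝ) (c : Fin m → ℝ)

/-- the shift of `n` -/
noncomputable def NN0 (A B C : ℝ) : Fin d → ℤ :=
  fun a => ⌊θ a * A + θ₀ a⌋ + ⌊θ a * B⌋ + ⌊θ a * C⌋

/-- the shift of `k` -/
noncomputable def KK0 (A B C : ℝ) (j : Fin d → ℤ) : Fin m → ℤ :=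
  fun r => ⌊XX θ θ₀ Q l c j r A B⌋ + ⌊YY θ Q l r B C⌋ + ⌊ZZ θ θ₀ Q l j r C A⌋

/-- the reduced point -/
noncomputable def rp (j : Fin d → ℤ) (i : Fin m → ℤ) (A B C : ℝ) : Fin d ⊕ Fin m → ℝ :=
  Sum.elim (fun a => (Int.fract (θ a * A + θ₀ a) - (j a : ℝ)) + Int.fract (θ a * B) +
      Int.fract (θ a * C))
    (fun r => (Int.fract (XX θ θ₀ Q l c j r A B) - (i r : ℝ)) + Int.fract (YY θ Q l r B C) +
      Int.fract (ZZ θ θ₀ Q l j r C A))

theorem pt_eq (j : Fin d → ℤ) (i : Fin m → ℤ) (A B C : ℝ) :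
    pt θ θ₀ Q l c (j + NN0 θ θ₀ A B C) (i + KK0 θ θ₀ Q l c A B C j) (A + B + C)
      = rp θ θ₀ Q l c j i A B C := by
  have hz : (Fin.cons (A + B + C)
        fun a => (((j + NN0 θ θ₀ A B C) a : ℤ) : ℝ) : Fin (d + 1) → ℝ)
      = zs θ θ₀ j A + zz θ 0 B + zz θ 0 C := by
    funext i
    refine Fin.cases ?_ (fun i => ?_) i
    · simp [zs, zz]
    · simp only [zs, zz, NN0, Pi.add_apply, Fin.cons_succ, Pi.zero_apply]
      push_cast
      ring
  funext s
  rcases s with a | r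
  · simp only [pt, rp, Sum.elim_inl, NN0, Pi.add_apply, Int.fract]
    push_cast
    ring
  · simp only [pt, rp, Sum.elim_inr]
    rw [hz, quad_add3]
    simp only [KK0, Pi.add_apply, Int.fract, XX, YY, ZZ]
    push_cast
    ring

theorem term_eq' (Ψ : (Fin d ⊕ Fin m → ℝ) → ℂ) (ψ : EuclideanSpace ℝ (Fin d ⊕ Fin m) → ℂ)
    (hψ : ∀ u : Fin d ⊕ Fin m → ℝ, Ψ u = ∫ ξ, ψ ξ * ee (∑ i, ξ i * u i))
    (p : (Fin d → ℤ) × (Fin m → ℤ)) (A B C : ℝ) :
    Ψ (rp θ θ₀ Q l c p.1 p.2 A B C) = ∫ ξ, ψ ξ *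
      (UU θ θ₀ Q l c p ξ A B * VV θ Q l p ξ B C * WW θ θ₀ Q l p ξ C A) := by
  rw [hψ]
  refine integral_congr_ae (Filter.Eventually.of_forall fun ξ => ?_)
  simp only
  congr 1
  unfold UU VV WW
  rw [← ee_add, ← ee_add]
  congr 1
  rw [Fintype.sum_sum_type]
  simp only [rp, Sum.elim_inl, Sum.elim_inr, mul_add, Finset.sum_add_distrib]
  ring

end split

/-- **splitting of the double sum** -/
theorem dsum_split (Ψ : (Fin d ⊕ Fin m → ℝ) → ℂ) (h1 : ContDiff ℝ ∞ Ψ)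
    (h2 : HasCompactSupport Ψ) :
    ∃ (J : Finset ((Fin d → ℤ) × (Fin m → ℤ))) (ψ : EuclideanSpace ℝ (Fin d ⊕ Fin m) → ℂ),
      Integrable ψ volume ∧ ∀ (θ θ₀ : Fin d → ℝ) (Q : Fin m → Fin (d + 1) → Fin (d + 1) → ℝ)
        (l : Fin m → Fin (d + 1) → ℝ) (c : Fin m → ℝ) (A B C : ℝ),
        dsum Ψ θ θ₀ Q l c (A + B + C) = ∑ p ∈ J, ∫ ξ, ψ ξ *
          (UU θ θ₀ Q l c p ξ A B * VV θ Q l p ξ B C * WW θ θ₀ Q l p ξ C A) := by
  classical
  obtain ⟨ψ, hψ1, hψ⟩ := fourier_rep' Ψ h1 h2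
  obtain ⟨M, hM⟩ : ∃ M : ℝ, ∀ u, Ψ u ≠ 0 → ‖u‖ ≤ M := by
    obtain ⟨M, hM⟩ := h2.isCompact.isBounded.subset_closedBall 0
    refine ⟨M, fun u hu => ?_⟩
    have := hM (subset_tsupport Ψ hu)
    simpa using this
  set q : ℤ := ⌈M⌉ + 3 with hq
  refine ⟨(Fintype.piFinset fun _ => Finset.Icc (-q) q) ×ˢ
    (Fintype.piFinset fun _ => Finset.Icc (-q) q), ψ, hψ1, ?_⟩
  intro θ θ₀ Q l c A B C
  unfold dsum
  let e : ((Fin d → ℤ) × (Fin m → ℤ)) ≃ ((Fin d → ℤ) × (Fin m → ℤ)) :=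
    Equiv.prodShear (Equiv.addRight (NN0 θ θ₀ A B C))
      (fun j => Equiv.addRight (KK0 θ θ₀ Q l c A B C j))
  have he : ∀ p, e p = (p.1 + NN0 θ θ₀ A B C, p.2 + KK0 θ θ₀ Q l c A B C p.1) := fun p => rfl
  have e1 := e.tsum_eq (fun p : (Fin d → ℤ) × (Fin m → ℤ) =>
    Ψ (pt θ θ₀ Q l c p.1 p.2 (A + B + C)))
  have e2 : ∀ p, Ψ (pt θ θ₀ Q l c (e p).1 (e p).2 (A + B + C))
      = Ψ (rp θ θ₀ Q l c p.1 p.2 A B C) := by
    intro p
    rw [he]
    simp only
    rw [pt_eq]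
  rw [← e1]
  simp only [e2]
  rw [tsum_eq_sum (s := (Fintype.piFinset fun _ => Finset.Icc (-q) q) ×ˢ
    (Fintype.piFinset fun _ => Finset.Icc (-q) q))]
  · exact Finset.sum_congr rfl fun p _ => term_eq' θ θ₀ Q l c Ψ ψ hψ p A B C
  · intro p hp
    by_contra hne
    apply hp
    have h3 := hM _ hne
    have hMc := Int.le_ceil M
    rw [Finset.mem_product, Fintype.mem_piFinset, Fintype.mem_piFinset]
    constructor
    · intro a
      have h4 := (norm_le_pi_norm (rp θ θ₀ Q l c p.1 p.2 A B C) (Sum.inl a)).trans h3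
      simp only [rp, Sum.elim_inl, Real.norm_eq_abs] at h4
      rw [abs_le] at h4
      have a1 := Int.fract_nonneg (θ a * A + θ₀ a)
      have a2 := Int.fract_lt_one (θ a * A + θ₀ a)
      have b1 := Int.fract_nonneg (θ a * B)
      have b2 := Int.fract_lt_one (θ a * B)
      have c1 := Int.fract_nonneg (θ a * C)
      have c2 := Int.fract_lt_one (θ a * C)
      rw [Finset.mem_Icc]
      constructor
      · have : (-(q : ℝ)) ≤ (p.1 a : ℝ) := by rw [hq]; push_cast; linarith [h4.1, h4.2]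
        exact_mod_cast this
      · have : (p.1 a : ℝ) ≤ (q : ℝ) := by rw [hq]; push_cast; linarith [h4.1, h4.2]
        exact_mod_cast this
    · intro r
      have h4 := (norm_le_pi_norm (rp θ θ₀ Q l c p.1 p.2 A B C) (Sum.inr r)).trans h3
      simp only [rp, Sum.elim_inr, Real.norm_eq_abs] at h4
      rw [abs_le] at h4
      have a1 := Int.fract_nonneg (XX θ θ₀ Q l c p.1 r A B)
      have a2 := Int.fract_lt_one (XX θ θ₀ Q l c p.1 r A B)
      have b1 := Int.fract_nonneg (YY θ Q l r B C)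
      have b2 := Int.fract_lt_one (YY θ Q l r B C)
      have c1 := Int.fract_nonneg (ZZ θ θ₀ Q l p.1 r C A)
      have c2 := Int.fract_lt_one (ZZ θ θ₀ Q l p.1 r C A)
      rw [Finset.mem_Icc]
      constructor
      · have : (-(q : ℝ)) ≤ (p.2 r : ℝ) := by rw [hq]; push_cast; linarith [h4.1, h4.2]
        exact_mod_cast this
      · have : (p.2 r : ℝ) ≤ (q : ℝ) := by rw [hq]; push_cast; linarith [h4.1, h4.2]
        exact_mod_cast this

end Vale.Agent.P141.R2.H860
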