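import Vale.Agent.P141.R2.H860.DSum
import Vale.Agent.P141.R2.H898.NMan
import Vale.Agent.P141.R2.H898.Bounds

/-!
# Smooth two-step nilsequences: the uniform form bound
-/

namespace Vale.Agent.P141.R2.H860

open MeasureTheory Set Filter Topology
open scoped ContDiff
open Vale.Agent.P141.H97 (ph Nice)
open Vale.Agent.P141.R2.H898 (FormU Bounds bounds_of Inv bil orb orb_eq cutF cutF_contDiff
  cutF_compact CB_orb)

variable {d m : ℕ}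

/-- the box of indices -/
noncomputable def box (d m : ℕ) (q : ℤ) : Finset ((Fin d → ℤ) × (Fin m → ℤ)) :=
  (Fintype.piFinset fun _ => Finset.Icc (-q) q) ×ˢ (Fintype.piFinset fun _ => Finset.Icc (-q) q)

theorem rp_mem {Ψ : (Fin d ⊕ Fin m → ℝ) → ℂ} {M : ℝ} (hM : ∀ u, Ψ u ≠ 0 → ‖u‖ ≤ M)
    (θ θ₀ : Fin d → ℝ) (Q : Fin m → Fin (d + 1) → Fin (d + 1) → ℝ)
    (l : Fin m → Fin (d + 1) → ℝ) (c : Fin m → ℝ) (A B C : ℝ)
    (p : (Fin d → ℤ) × (Fin m → ℤ)) (hp : p ∉ box d m (⌈M⌉ + 3)) :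
    Ψ (rp θ θ₀ Q l c p.1 p.2 A B C) = 0 := by
  classical
  by_contra hne
  apply hp
  have h3 := hM _ hne
  have hMc := Int.le_ceil M
  set q : ℤ := ⌈M⌉ + 3 with hq
  unfold box
  rw [Finset.mem_product, Fintype.mem_piFinset, Fintype.mem_piFinset]
  constructor
  · intro a
    have h4 := (norm_le_pi_norm (rp θ θ₀ Q l c p.1 p.2 A B C) (Sum.inl a)).trans h3
    simp only [rp, Sum.elim_inl, Real.norm_eq_abs] at h4
    rw [abs_le] at h4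
    have a1 := Int.fract_nonneg (θ a * A + θ₀ a)
    have a2 := Int.fract_lt_one (θ a * A + θ₀ a)
    have b1 := Int.fract_nonneg (θ a * B)
    have b2 := Int.fract_lt_one (θ a * B)
    have c1 := Int.fract_nonneg (θ a * C)
    have c2 := Int.fract_lt_one (θ a * C)
    rw [Finset.mem_Icc]
    constructor
    · have : (-(q : ℝ)) ≤ (p.1 a : ℝ) := by rw [hq]; push_cast; linarith [h4.1, h4.2]
      exact_mod_cast this
    · have : (p.1 a : ℝ) ≤ (q : ℝ) := by rw [hq]; push_cast; linarith [h4.1, h4.2]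
      exact_mod_cast this
  · intro r
    have h4 := (norm_le_pi_norm (rp θ θ₀ Q l c p.1 p.2 A B C) (Sum.inr r)).trans h3
    simp only [rp, Sum.elim_inr, Real.norm_eq_abs] at h4
    rw [abs_le] at h4
    have a1 := Int.fract_nonneg (XX θ θ₀ Q l c p.1 r A B)
    have a2 := Int.fract_lt_one (XX θ θ₀ Q l c p.1 r A B)
    have b1 := Int.fract_nonneg (YY θ Q l r B C)
    have b2 := Int.fract_lt_one (YY θ Q l r B C)
    have c1 := Int.fract_nonneg (ZZ θ θ₀ Q l p.1 r C A)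
    have c2 := Int.fract_lt_one (ZZ θ θ₀ Q l p.1 r C A)
    rw [Finset.mem_Icc]
    constructor
    · have : (-(q : ℝ)) ≤ (p.2 r : ℝ) := by rw [hq]; push_cast; linarith [h4.1, h4.2]
      exact_mod_cast this
    · have : (p.2 r : ℝ) ≤ (q : ℝ) := by rw [hq]; push_cast; linarith [h4.1, h4.2]
      exact_mod_cast this

theorem bdd_of_compact {Ψ : (Fin d ⊕ Fin m → ℝ) → ℂ} (h2 : HasCompactSupport Ψ) :
    ∃ M : ℝ, ∀ u, Ψ u ≠ 0 → ‖u‖ ≤ M := by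
  obtain ⟨M, hM⟩ := h2.isCompact.isBounded.subset_closedBall 0
  refine ⟨M, fun u hu => ?_⟩
  have := hM (subset_tsupport Ψ hu)
  simpa using this

theorem dsum_summable {Ψ : (Fin d ⊕ Fin m → ℝ) → ℂ} (h2 : HasCompactSupport Ψ)
    (θ θ₀ : Fin d → ℝ) (Q : Fin m → Fin (d + 1) → Fin (d + 1) → ℝ)
    (l : Fin m → Fin (d + 1) → ℝ) (c : Fin m → ℝ) (t : ℝ) :
    Summable fun p : (Fin d → ℤ) × (Fin m → ℤ) => Ψ (pt θ θ₀ Q l c p.1 p.2 t) := by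
  obtain ⟨M, hM⟩ := bdd_of_compact h2
  let e : ((Fin d → ℤ) × (Fin m → ℤ)) ≃ ((Fin d → ℤ) × (Fin m → ℤ)) :=
    Equiv.prodShear (Equiv.addRight (NN0 θ θ₀ t 0 0))
      (fun j => Equiv.addRight (KK0 θ θ₀ Q l c t 0 0 j))
  have he : ∀ p, e p = (p.1 + NN0 θ θ₀ t 0 0, p.2 + KK0 θ θ₀ Q l c t 0 0 p.1) := fun p => rfl
  rw [← e.summable_iff]
  refine summable_of_ne_finset_zero (s := box d m (⌈M⌉ + 3)) fun p hp => ?_
  have h3 := rp_mem hM θ θ₀ Q l c t 0 0 p hp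
  rw [← pt_eq] at h3
  simp only [Function.comp, he]
  simpa using h3

theorem dsum_nested {Ψ : (Fin d ⊕ Fin m → ℝ) → ℂ} (h2 : HasCompactSupport Ψ)
    (θ θ₀ : Fin d → ℝ) (Q : Fin m → Fin (d + 1) → Fin (d + 1) → ℝ)
    (l : Fin m → Fin (d + 1) → ℝ) (c : Fin m → ℝ) (t : ℝ) :
    dsum Ψ θ θ₀ Q l c t = ∑' n : Fin d → ℤ, ∑' k : Fin m → ℤ, Ψ (pt θ θ₀ Q l c n k t) :=
  (dsum_summable h2 θ θ₀ Q l c t).tsum_prod

/-- the form bound for the double sums -/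
theorem formU_dsum (Ψ : (Fin d ⊕ Fin m → ℝ) → ℂ) (h1 : ContDiff ℝ ∞ Ψ)
    (h2 : HasCompactSupport Ψ) :
    FormU {h : ℝ → ℂ | ∃ (θ θ₀ : Fin d → ℝ) (Q : Fin m → Fin (d + 1) → Fin (d + 1) → ℝ)
      (l : Fin m → Fin (d + 1) → ℝ) (c : Fin m → ℝ), h = dsum Ψ θ θ₀ Q l c} := by
  obtain ⟨C, hC0, hC⟩ := abs_form
  obtain ⟨J, ψ, hψ, hJ⟩ := dsum_split Ψ h1 h2
  refine ⟨((J.card : ℝ) * ∫ ξ, ‖ψ ξ‖) * C,
    mul_nonneg (mul_nonneg (Nat.cast_nonneg _) (integral_nonneg fun _ => norm_nonneg _)) hC0, ?_⟩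
  rintro h ⟨θ, θ₀, Q, l, c, rfl⟩ c₁ c₂ c₃ f₁ f₂ f₃ n₁ n₂ n₃ n m₁ m₂ m₃ ε R hε hR
  exact hC (Fin d ⊕ Fin m) ((Fin d → ℤ) × (Fin m → ℤ)) J ψ (UU θ θ₀ Q l c) (VV θ Q l)
    (WW θ θ₀ Q l) (dsum Ψ θ θ₀ Q l c) hψ (un_UU θ θ₀ Q l c) (un_VV θ Q l) (un_WW θ θ₀ Q l)
    (hJ θ θ₀ Q l c) c₁ c₂ c₃ f₁ f₂ f₃ n₁ n₂ n₃ n m₁ m₂ m₃ ε R hε hR

/-- matrix of the quadratic polynomial -/
noncomputable def QB (B : Fin m → Fin d → Fin d → ℤ) (θ : Fin d → ℝ) (a : Fin m → ℝ)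
    (r : Fin m) (i j : Fin (d + 1)) : ℝ :=
  Fin.cases (motive := fun _ => ℝ)
    (Fin.cases (motive := fun _ => ℝ) (a r) (fun j => -∑ i, (B r i j : ℝ) * θ i) j)
    (fun _ => 0) i

/-- linear part of the quadratic polynomial -/
noncomputable def lB (B : Fin m → Fin d → Fin d → ℤ) (θ₀ : Fin d → ℝ) (b : Fin m → ℝ)
    (r : Fin m) (j : Fin (d + 1)) : ℝ :=
  Fin.cases (motive := fun _ => ℝ) (b r) (fun j => -∑ i, (B r i j : ℝ) * θ₀ i) j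

theorem quad_QB (B : Fin m → Fin d → Fin d → ℤ) (θ θ₀ : Fin d → ℝ) (a b c : Fin m → ℝ)
    (r : Fin m) (t : ℝ) (n : Fin d → ℝ) :
    quad (QB B θ a r) (lB B θ₀ b r) (c r) (Fin.cons t n) = a r * t ^ 2 + b r * t + c r -
      bil B (fun i => θ i * t + θ₀ i) n r := by
  have e : bil B (fun i => θ i * t + θ₀ i) n r =
      ∑ j, (t * ((∑ i, (B r i j : ℝ) * θ i) * n j) + (∑ i, (B r i j : ℝ) * θ₀ i) * n j) := by
    unfold bil
    rw [Finset.sum_comm]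
    refine Finset.sum_congr rfl fun j _ => ?_
    rw [Finset.sum_mul, Finset.sum_mul, Finset.mul_sum, ← Finset.sum_add_distrib]
    refine Finset.sum_congr rfl fun i _ => ?_
    ring
  rw [e]
  unfold quad
  simp only [Fin.sum_univ_succ, QB, lB, Fin.cases_zero, Fin.cases_succ, Fin.cons_zero,
    Fin.cons_succ, zero_mul, Finset.sum_const_zero, add_zero]
  rw [Finset.sum_add_distrib]
  have e1 : ∑ x, -(∑ i, (B r i x : ℝ) * θ i) * t * n x =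
      - ∑ x, t * ((∑ i, (B r i x : ℝ) * θ i) * n x) := by
    rw [← Finset.sum_neg_distrib]
    refine Finset.sum_congr rfl fun j _ => ?_
    ring
  have e2 : ∑ x, -(∑ i, (B r i x : ℝ) * θ₀ i) * n x =
      - ∑ x, (∑ i, (B r i x : ℝ) * θ₀ i) * n x := by
    rw [← Finset.sum_neg_distrib]
    refine Finset.sum_congr rfl fun j _ => ?_
    ring
  rw [e1, e2]
  ring

/-- the cut-off function on the sum type -/
noncomputable def cutS (F : (Fin d → ℝ) × (Fin m → ℝ) → ℂ) (u : Fin d ⊕ Fin m → ℝ) : ℂ :=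
  cutF F (fun i => u (Sum.inl i), fun j => u (Sum.inr j))

theorem cutS_contDiff {F : (Fin d → ℝ) × (Fin m → ℝ) → ℂ} (hF : ContDiff ℝ ∞ F) :
    ContDiff ℝ ∞ (cutS F) := by
  unfold cutS
  refine (cutF_contDiff hF).comp (ContDiff.prodMk ?_ ?_)
  · exact contDiff_pi.2 fun i => contDiff_apply ℝ ℝ (Sum.inl i)
  · exact contDiff_pi.2 fun i => contDiff_apply ℝ ℝ (Sum.inr i)

theorem cutS_compact (F : (Fin d → ℝ) × (Fin m → ℝ) → ℂ) : HasCompactSupport (cutS F) := by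
  have h := cutF_compact F
  exact h.comp_homeomorph
    (Homeomorph.sumArrowHomeomorphProdArrow (ι := Fin d) (ι' := Fin m) (X := ℝ))

theorem orb_dsum {B : Fin m → Fin d → Fin d → ℤ} {F : (Fin d → ℝ) × (Fin m → ℝ) → ℂ}
    (h : Inv B F) (θ θ₀ : Fin d → ℝ) (a b c : Fin m → ℝ) :
    orb F θ θ₀ a b c = dsum (cutS F) θ θ₀ (QB B θ a) (lB B θ₀ b) c := by
  funext t
  rw [orb_eq h, dsum_nested (cutS_compact F)]
  refine tsum_congr fun n => tsum_congr fun k => ?_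
  unfold cutS pt
  simp only [Sum.elim_inl, Sum.elim_inr, quad_QB]

/-- **the form bound for smooth two-step nilsequences** -/
theorem formU_orb {B : Fin m → Fin d → Fin d → ℤ} {F : (Fin d → ℝ) × (Fin m → ℝ) → ℂ}
    (hF : ContDiff ℝ ∞ F) (h : Inv B F) :
    FormU {h : ℝ → ℂ | ∃ (θ θ₀ : Fin d → ℝ) (a b c : Fin m → ℝ), h = orb F θ θ₀ a b c} := by
  obtain ⟨C, hC0, hC⟩ := formU_dsum (cutS F) (cutS_contDiff hF) (cutS_compact F)
  refine ⟨C, hC0, ?_⟩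
  rintro g ⟨θ, θ₀, a, b, c, rfl⟩
  exact hC _ ⟨θ, θ₀, QB B θ a, lB B θ₀ b, c, orb_dsum h θ θ₀ a b c⟩

/-- **all four parts for smooth two-step nilsequences** -/
theorem bounds_orb {B : Fin m → Fin d → Fin d → ℤ} {F : (Fin d → ℝ) × (Fin m → ℝ) → ℂ}
    (hF : ContDiff ℝ ∞ F) (h : Inv B F) :
    Bounds {h : ℝ → ℂ | ∃ (θ θ₀ : Fin d → ℝ) (a b c : Fin m → ℝ), h = orb F θ θ₀ a b c} := by
  refine bounds_of ?_ (formU_orb hF h)
  rintro g ⟨θ, θ₀, a, b, c, rfl⟩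
  exact CB_orb h hF θ θ₀ a b c

end Vale.Agent.P141.R2.H860
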