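import Mathlib
import Vale.Agent.P141.Defs

/-!
# The definitions used by the statement of `P141.Nilsequences`

`Bounds H` is the list of the four statements about the trilinear Hilbert transform proved for a
set `H` of functions; `Inv`, `orb` : smooth functions on two-step nilmanifolds along polynomial
orbits; `dsum`, `nil` : explicit sums; `Tens` : functions with a splitting.
-/

open MeasureTheory Filter Topology Set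
open scoped ENNReal SchwartzMap ContDiff

namespace Vale.Agent.P141.R2.H898

open Vale.Agent.P141

/-- There are constants `C` such that for all `h ∈ H`:
(1) the limits which define `T(h, f, g)`, `T(f, h, g)`, `T(f, g, h)` exist at every point;
(2) these three functions have `L^{3/2}` norm at most `C ‖f‖_3 ‖g‖_3`;
(3) arbitrary slopes: the limit exists at every point, bounds for all truncations and the limit;
(4) `|∫ h T_{ε,R}(f₁, f₂, f₃)| ≤ C ‖f₁‖_3 ‖f₂‖_3 ‖f₃‖_3`. -/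
def Bounds (H : Set (ℝ → ℂ)) : Prop :=
  (∀ h ∈ H, ∀ (f g : 𝓢(ℝ, ℂ)) (x : ℝ),
      Tendsto (fun q : ℝ × ℝ => truncTHT h f g q.1 q.2 x)
        (𝓝[>] (0 : ℝ) ×ˢ atTop) (𝓝 (THT h f g x)) ∧
      Tendsto (fun q : ℝ × ℝ => truncTHT f h g q.1 q.2 x)
        (𝓝[>] (0 : ℝ) ×ˢ atTop) (𝓝 (THT f h g x)) ∧
      Tendsto (fun q : ℝ × ℝ => truncTHT f g h q.1 q.2 x)
        (𝓝[>] (0 : ℝ) ×ˢ atTop) (𝓝 (THT f g h x))) ∧
    (∃ C : ℝ≥0∞, C < ⊤ ∧ ∀ h ∈ H, ∀ f g : 𝓢(ℝ, ℂ),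
      eLpNorm (THT h f g) (3 / 2) volume ≤ C * eLpNorm f 3 volume * eLpNorm g 3 volume ∧
      eLpNorm (THT f h g) (3 / 2) volume ≤ C * eLpNorm f 3 volume * eLpNorm g 3 volume ∧
      eLpNorm (THT f g h) (3 / 2) volume ≤ C * eLpNorm f 3 volume * eLpNorm g 3 volume) ∧
    (∃ C : ℝ, 0 ≤ C ∧ ∀ h ∈ H, ∀ a₁ a₂ a₃ : ℝ, a₁ ≠ 0 → a₂ ≠ a₁ → a₃ ≠ a₁ → a₂ ≠ a₃ →
      ∀ f g : 𝓢(ℝ, ℂ), ∃ T : ℝ → ℂ,
        (∀ x, Tendsto (fun q : ℝ × ℝ => ∫ t in {t : ℝ | q.1 < |t| ∧ |t| < q.2},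
            f (x - a₂ * t) * g (x - a₃ * t) * h (x - a₁ * t) / (t : ℂ))
          (𝓝[>] (0 : ℝ) ×ˢ atTop) (𝓝 (T x))) ∧
        (∀ ε R : ℝ, 0 < ε → ε < R →
          eLpNorm (fun x : ℝ => ∫ t in {t : ℝ | ε < |t| ∧ |t| < R},
            f (x - a₂ * t) * g (x - a₃ * t) * h (x - a₁ * t) / (t : ℂ)) (3 / 2) volume ≤
          ENNReal.ofReal (C * (|a₁ * (a₂ - a₁) * (a₃ - a₁)| ^ ((1 : ℝ) / 3) *
            (|a₁|⁻¹ + |a₂ - a₁|⁻¹ + |a₃ - a₁|⁻¹))) * eLpNorm f 3 volume * eLpNorm g 3 volume) ∧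
        eLpNorm T (3 / 2) volume ≤
          ENNReal.ofReal (C * (|a₁ * (a₂ - a₁) * (a₃ - a₁)| ^ ((1 : ℝ) / 3) *
            (|a₁|⁻¹ + |a₂ - a₁|⁻¹ + |a₃ - a₁|⁻¹))) * eLpNorm f 3 volume *
              eLpNorm g 3 volume) ∧
    (∃ C : ℝ, 0 ≤ C ∧ ∀ h ∈ H, ∀ (f₁ f₂ f₃ : 𝓢(ℝ, ℂ)) (ε R : ℝ), 0 < ε → ε < R →
        ‖∫ x, h x * truncTHT f₁ f₂ f₃ ε R x‖ ≤
          C * ((eLpNorm f₁ 3 volume).toReal * (eLpNorm f₂ 3 volume).toReal *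
            (eLpNorm f₃ 3 volume).toReal))

/-- the bilinear map `B(x, y)_i = Σ_{j,l} B_{ijl} x_j y_l` of the group law
`(x, z)(y, w) = (x + y, z + w + B(x, y))` on `ℝ^d × ℝ^m` -/
def bil {d m : ℕ} (B : Fin m → Fin d → Fin d → ℤ) (x y : Fin d → ℝ) (i : Fin m) : ℝ :=
  ∑ j, ∑ l, (B i j l : ℝ) * x j * y l

/-- `F` is a function on the nilmanifold: `F(x, z) = F((x, z)(n, k))` for all integer points
`(n, k)` of the group `(x, z)(y, w) = (x + y, z + w + B(x, y))` -/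
def Inv {d m : ℕ} (B : Fin m → Fin d → Fin d → ℤ) (F : (Fin d → ℝ) × (Fin m → ℝ) → ℂ) : Prop :=
  ∀ (x : Fin d → ℝ) (z : Fin m → ℝ) (n : Fin d → ℤ) (k : Fin m → ℤ),
    F (fun i => x i + n i, fun i => z i + k i + bil B x (fun l => (n l : ℝ)) i) = F (x, z)

/-- `F` along the polynomial orbit `t ↦ (θ t + θ₀, a t² + b t + c)` -/
noncomputable def orb {d m : ℕ} (F : (Fin d → ℝ) × (Fin m → ℝ) → ℂ) (θ θ₀ : Fin d → ℝ)
    (a b c : Fin m → ℝ) (t : ℝ) : ℂ :=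
  F (fun i => θ i * t + θ₀ i, fun i => a i * t ^ 2 + b i * t + c i)

end Vale.Agent.P141.R2.H898

namespace Vale.Agent.P141.R2.H860

/-- `e(t) = exp (2 π i t)` -/
noncomputable def ee (t : ℝ) : ℂ := Complex.exp (2 * Real.pi * t * Complex.I)

/-- the real quadratic polynomial with coefficients `Q`, `l`, `c` -/
noncomputable def quad {m : ℕ} (Q : Fin m → Fin m → ℝ) (l : Fin m → ℝ) (c : ℝ)
    (z : Fin m → ℝ) : ℝ :=
  ∑ i, ∑ j, Q i j * z i * z j + ∑ i, l i * z i + c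

/-- `h(x) = Σ_n φ(θ x - n) e(q(x, n))`, the sum over `n ∈ ℤ^d`, `q` the real quadratic polynomial
with coefficients `Q`, `l`, `c` -/
noncomputable def nil {d : ℕ} (φ : (Fin d → ℝ) → ℂ) (θ : Fin d → ℝ)
    (Q : Fin (d + 1) → Fin (d + 1) → ℝ) (l : Fin (d + 1) → ℝ) (c : ℝ) (x : ℝ) : ℂ :=
  ∑' n : Fin d → ℤ, φ (fun i => θ i * x - n i) * ee (quad Q l c (Fin.cons x fun i => (n i : ℝ)))

/-- the point `(θ t + θ₀ - n, P(t, n) - k)`, `P` a vector of `m` real quadratic polynomials with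
coefficients `Q`, `l`, `c` -/
noncomputable def pt {d m : ℕ} (θ θ₀ : Fin d → ℝ) (Q : Fin m → Fin (d + 1) → Fin (d + 1) → ℝ)
    (l : Fin m → Fin (d + 1) → ℝ) (c : Fin m → ℝ) (n : Fin d → ℤ) (k : Fin m → ℤ) (t : ℝ) :
    Fin d ⊕ Fin m → ℝ :=
  Sum.elim (fun i => θ i * t + θ₀ i - (n i : ℝ))
    (fun r => quad (Q r) (l r) (c r) (Fin.cons t fun i => (n i : ℝ)) - (k r : ℝ))

/-- `h(t) = Σ_{n ∈ ℤ^d, k ∈ ℤ^m} Ψ(θ t + θ₀ - n, P(t, n) - k)` -/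
noncomputable def dsum {d m : ℕ} (Ψ : (Fin d ⊕ Fin m → ℝ) → ℂ) (θ θ₀ : Fin d → ℝ)
    (Q : Fin m → Fin (d + 1) → Fin (d + 1) → ℝ) (l : Fin m → Fin (d + 1) → ℝ) (c : Fin m → ℝ)
    (t : ℝ) : ℂ :=
  ∑' p : (Fin d → ℤ) × (Fin m → ℤ), Ψ (pt θ θ₀ Q l c p.1 p.2 t)

/-- measurable with values in the unit disc -/
structure Un {κ : Type} [Fintype κ] (U : EuclideanSpace ℝ κ → ℝ → ℝ → ℂ) : Prop where
  meas : Measurable fun p : EuclideanSpace ℝ κ × ℝ × ℝ => U p.1 p.2.1 p.2.2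
  le : ∀ ξ A B, ‖U ξ A B‖ ≤ 1

/-- bounded `C^1` functions `h` with
`h(A+B+C) = Σ_{j ∈ J} ∫ ψ(ξ) U_j(ξ,A,B) V_j(ξ,B,C) W_j(ξ,C,A) dξ` for all `A, B, C`, where `U_j`,
`V_j`, `W_j` are measurable with absolute value at most one and `|J| ∫ |ψ| ≤ 1` -/
def Tens : Set (ℝ → ℂ) :=
  {h | (ContDiff ℝ 1 h ∧ ∃ M : ℝ, ∀ x, ‖h x‖ ≤ M) ∧
    ∃ (k : ℕ) (ι : Type) (J : Finset ι) (ψ : EuclideanSpace ℝ (Fin k) → ℂ)
      (U V W : ι → EuclideanSpace ℝ (Fin k) → ℝ → ℝ → ℂ), Integrable ψ volume ∧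
      (∀ j, Un (U j)) ∧ (∀ j, Un (V j)) ∧ (∀ j, Un (W j)) ∧ (J.card : ℝ) * ∫ ξ, ‖ψ ξ‖ ≤ 1 ∧
      ∀ A B C : ℝ, h (A + B + C) =
        ∑ j ∈ J, ∫ ξ, ψ ξ * (U j ξ A B * V j ξ B C * W j ξ C A)}

end Vale.Agent.P141.R2.H860
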