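import Vale.Agent.P141.R2.H860.NDefs

/-!
# Nilsequences of step two split into functions of two variables
-/

namespace Vale.Agent.P141.R2.H860

open MeasureTheory Set
open scoped FourierTransform ContDiff

theorem ee_add (s t : ℝ) : ee (s + t) = ee s * ee t := by
  unfold ee
  rw [← Complex.exp_add]
  congr 1
  push_cast
  ring

theorem norm_ee (t : ℝ) : ‖ee t‖ = 1 := by
  unfold ee
  have : (2 * Real.pi * t * Complex.I : ℂ) = ((2 * Real.pi * t : ℝ) : ℂ) * Complex.I := by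
    push_cast; ring
  rw [this, Complex.norm_exp_ofReal_mul_I]

theorem continuous_ee : Continuous ee := by
  unfold ee
  fun_prop

/-- the symmetrised bilinear form of the quadratic polynomial -/
noncomputable def cross {m : ℕ} (Q : Fin m → Fin m → ℝ) (u v : Fin m → ℝ) : ℝ :=
  ∑ i, ∑ j, Q i j * (u i * v j + v i * u j)

theorem quad_add3 {m : ℕ} (Q : Fin m → Fin m → ℝ) (l : Fin m → ℝ) (c : ℝ) (u v w : Fin m → ℝ) :
    quad Q l c (u + v + w) = (quad Q l c u + cross Q u v) + (quad Q l 0 v + cross Q v w)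
      + (quad Q l 0 w + cross Q w u) := by
  have h1 : ∑ i, ∑ j, Q i j * (u + v + w) i * (u + v + w) j
      = ∑ i, ∑ j, Q i j * u i * u j + ∑ i, ∑ j, Q i j * v i * v j + ∑ i, ∑ j, Q i j * w i * w j
        + cross Q u v + cross Q v w + cross Q w u := by
    unfold cross
    simp only [← Finset.sum_add_distrib]
    refine Finset.sum_congr rfl fun i _ => Finset.sum_congr rfl fun j _ => ?_
    simp only [Pi.add_apply]
    ring
  have h2 : ∑ i, l i * (u + v + w) i = ∑ i, l i * u i + ∑ i, l i * v i + ∑ i, l i * w i := by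
    simp only [← Finset.sum_add_distrib]
    refine Finset.sum_congr rfl fun i _ => ?_
    simp only [Pi.add_apply]
    ring
  unfold quad
  rw [h1, h2]
  ring

/-- Fourier representation of a smooth function with compact support -/
theorem fourier_rep {d : ℕ} (φ : (Fin d → ℝ) → ℂ) (h1 : ContDiff ℝ ∞ φ)
    (h2 : HasCompactSupport φ) :
    ∃ ψ : EuclideanSpace ℝ (Fin d) → ℂ, Integrable ψ volume ∧ Continuous ψ ∧
      ∀ u : Fin d → ℝ, φ u = ∫ ξ, ψ ξ * ee (∑ i, ξ i * u i) := by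
  let L : EuclideanSpace ℝ (Fin d) ≃L[ℝ] (Fin d → ℝ) := EuclideanSpace.equiv (Fin d) ℝ
  have hf1 : ContDiff ℝ ∞ (φ ∘ L) := h1.comp L.contDiff
  have hf2 : HasCompactSupport (φ ∘ L) := h2.comp_homeomorph L.toHomeomorph
  let f : SchwartzMap (EuclideanSpace ℝ (Fin d)) ℂ := hf2.toSchwartzMap hf1
  have hfc : ∀ v, f v = φ (L v) := fun v => rfl
  let g : SchwartzMap (EuclideanSpace ℝ (Fin d)) ℂ := 𝓕 f
  have hg : (g : EuclideanSpace ℝ (Fin d) → ℂ) = 𝓕 (f : EuclideanSpace ℝ (Fin d) → ℂ) :=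
    SchwartzMap.fourier_coe f
  refine ⟨g, g.integrable, g.continuous, fun u => ?_⟩
  have hinv : 𝓕⁻ (𝓕 (f : EuclideanSpace ℝ (Fin d) → ℂ)) = f :=
    Continuous.fourierInv_fourier_eq f.continuous f.integrable (by
      rw [← hg]; exact g.integrable)
  have h3 := congrFun hinv (L.symm u)
  rw [hfc, L.apply_symm_apply] at h3
  rw [← h3, Real.fourierInv_eq']
  refine integral_congr_ae (Filter.Eventually.of_forall fun ξ => ?_)
  simp only [smul_eq_mul]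
  rw [hg, mul_comm]
  congr 1
  unfold ee
  congr 1
  have h4 : inner ℝ ξ (L.symm u) = ∑ i, ξ i * u i := by
    rw [PiLp.inner_apply]
    refine Finset.sum_congr rfl fun i _ => ?_
    simp [L, mul_comm]
  rw [h4]
  push_cast
  ring

/-- the vector `(A, ⌊θ A⌋ + j)` -/
noncomputable def zz {d : ℕ} (θ : Fin d → ℝ) (j : Fin d → ℤ) (A : ℝ) : Fin (d + 1) → ℝ :=
  Fin.cons A fun i => (⌊θ i * A⌋ : ℝ) + (j i : ℝ)

/-- first factor -/
noncomputable def W0 {d : ℕ} (θ : Fin d → ℝ) (Q : Fin (d + 1) → Fin (d + 1) → ℝ)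
    (l : Fin (d + 1) → ℝ) (c : ℝ) (j : Fin d → ℤ) (ξ : EuclideanSpace ℝ (Fin d)) (A B : ℝ) : ℂ :=
  ee (∑ i, ξ i * (Int.fract (θ i * A) - (j i : ℝ)) +
    (quad Q l c (zz θ j A) + cross Q (zz θ j A) (zz θ 0 B)))

/-- second factor -/
noncomputable def W1 {d : ℕ} (θ : Fin d → ℝ) (Q : Fin (d + 1) → Fin (d + 1) → ℝ)
    (l : Fin (d + 1) → ℝ) (ξ : EuclideanSpace ℝ (Fin d)) (B C : ℝ) : ℂ :=
  ee (∑ i, ξ i * Int.fract (θ i * B) +
    (quad Q l 0 (zz θ 0 B) + cross Q (zz θ 0 B) (zz θ 0 C)))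

/-- third factor -/
noncomputable def W2 {d : ℕ} (θ : Fin d → ℝ) (Q : Fin (d + 1) → Fin (d + 1) → ℝ)
    (l : Fin (d + 1) → ℝ) (j : Fin d → ℤ) (ξ : EuclideanSpace ℝ (Fin d)) (C A : ℝ) : ℂ :=
  ee (∑ i, ξ i * Int.fract (θ i * C) +
    (quad Q l 0 (zz θ 0 C) + cross Q (zz θ 0 C) (zz θ j A)))

theorem norm_W0 {d : ℕ} (θ : Fin d → ℝ) (Q) (l) (c) (j) (ξ) (A B : ℝ) :
    ‖W0 θ Q l c j ξ A B‖ = 1 := norm_ee _

theorem norm_W1 {d : ℕ} (θ : Fin d → ℝ) (Q) (l) (ξ) (A B : ℝ) :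
    ‖W1 θ Q l ξ A B‖ = 1 := norm_ee _

theorem norm_W2 {d : ℕ} (θ : Fin d → ℝ) (Q) (l) (j) (ξ) (A B : ℝ) :
    ‖W2 θ Q l j ξ A B‖ = 1 := norm_ee _

theorem term_eq {d : ℕ} (φ : (Fin d → ℝ) → ℂ) (ψ : EuclideanSpace ℝ (Fin d) → ℂ)
    (hψ : ∀ u : Fin d → ℝ, φ u = ∫ ξ, ψ ξ * ee (∑ i, ξ i * u i)) (θ : Fin d → ℝ)
    (Q : Fin (d + 1) → Fin (d + 1) → ℝ) (l : Fin (d + 1) → ℝ) (c : ℝ) (j : Fin d → ℤ)
    (A B C : ℝ) :
    φ (fun i => θ i * (A + B + C) - ((j i + (⌊θ i * A⌋ + ⌊θ i * B⌋ + ⌊θ i * C⌋) : ℤ) : ℝ)) *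
      ee (quad Q l c (Fin.cons (A + B + C)
        fun i => ((j i + (⌊θ i * A⌋ + ⌊θ i * B⌋ + ⌊θ i * C⌋) : ℤ) : ℝ)))
      = ∫ ξ, ψ ξ * (W0 θ Q l c j ξ A B * W1 θ Q l ξ B C * W2 θ Q l j ξ C A) := by
  have hz : (Fin.cons (A + B + C)
        fun i => ((j i + (⌊θ i * A⌋ + ⌊θ i * B⌋ + ⌊θ i * C⌋) : ℤ) : ℝ) : Fin (d + 1) → ℝ)
      = zz θ j A + zz θ 0 B + zz θ 0 C := by
    funext i
    refine Fin.cases ?_ (fun i => ?_) i
    · simp [zz]
    · simp only [zz, Pi.add_apply, Fin.cons_succ, Pi.zero_apply]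
      push_cast
      ring
  rw [hz, quad_add3, hψ, ← integral_mul_const]
  refine integral_congr_ae (Filter.Eventually.of_forall fun ξ => ?_)
  simp only
  rw [mul_assoc]
  congr 1
  unfold W0 W1 W2
  rw [← ee_add, ← ee_add, ← ee_add]
  congr 1
  have hs : ∑ i, ξ i * (θ i * (A + B + C)
        - ((j i + (⌊θ i * A⌋ + ⌊θ i * B⌋ + ⌊θ i * C⌋) : ℤ) : ℝ))
      = ∑ i, ξ i * (Int.fract (θ i * A) - (j i : ℝ)) + ∑ i, ξ i * Int.fract (θ i * B)
        + ∑ i, ξ i * Int.fract (θ i * C) := by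
    simp only [← Finset.sum_add_distrib]
    refine Finset.sum_congr rfl fun i _ => ?_
    simp only [Int.fract]
    push_cast
    ring
  rw [hs]
  ring

/-- **splitting**: `h(A + B + C)` is an integral of products of unimodular functions of `(A, B)`,
`(B, C)` and `(C, A)` -/
theorem nil_split {d : ℕ} (φ : (Fin d → ℝ) → ℂ) (h1 : ContDiff ℝ ∞ φ) (h2 : HasCompactSupport φ) :
    ∃ (J : Finset (Fin d → ℤ)) (ψ : EuclideanSpace ℝ (Fin d) → ℂ), Integrable ψ volume ∧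
      Continuous ψ ∧ ∀ (θ : Fin d → ℝ) (Q : Fin (d + 1) → Fin (d + 1) → ℝ)
        (l : Fin (d + 1) → ℝ) (c : ℝ) (A B C : ℝ),
        nil φ θ Q l c (A + B + C) = ∑ j ∈ J, ∫ ξ, ψ ξ *
          (W0 θ Q l c j ξ A B * W1 θ Q l ξ B C * W2 θ Q l j ξ C A) := by
  classical
  obtain ⟨ψ, hψ1, hψ2, hψ⟩ := fourier_rep φ h1 h2
  obtain ⟨M, hM⟩ : ∃ M : ℝ, ∀ u, φ u ≠ 0 → ‖u‖ ≤ M := by
    obtain ⟨M, hM⟩ := h2.isCompact.isBounded.subset_closedBall 0
    refine ⟨M, fun u hu => ?_⟩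
    have := hM (subset_tsupport φ hu)
    simpa using this
  set m : ℤ := ⌈M⌉ + 3 with hm
  refine ⟨Fintype.piFinset fun _ => Finset.Icc (-m) m, ψ, hψ1, hψ2, ?_⟩
  intro θ Q l c A B C
  unfold nil
  have e1 := (Equiv.addRight (fun i => ⌊θ i * A⌋ + ⌊θ i * B⌋ + ⌊θ i * C⌋ : Fin d → ℤ)).tsum_eq
    (fun n : Fin d → ℤ => φ (fun i => θ i * (A + B + C) - n i) *
      ee (quad Q l c (Fin.cons (A + B + C) fun i => (n i : ℝ))))
  rw [← e1, tsum_eq_sum (s := Fintype.piFinset fun _ => Finset.Icc (-m) m)]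
  · refine Finset.sum_congr rfl fun j _ => ?_
    exact term_eq φ ψ hψ θ Q l c j A B C
  · intro j hj
    have : φ (fun i => θ i * (A + B + C) -
        (((Equiv.addRight (fun i => ⌊θ i * A⌋ + ⌊θ i * B⌋ + ⌊θ i * C⌋ : Fin d → ℤ)) j i : ℤ) : ℝ))
        = 0 := by
      by_contra hne
      apply hj
      rw [Fintype.mem_piFinset]
      intro i
      have h3 := hM _ hne
      have h4 := (norm_le_pi_norm (fun i => θ i * (A + B + C) -
        (((Equiv.addRight (fun i => ⌊θ i * A⌋ + ⌊θ i * B⌋ + ⌊θ i * C⌋ : Fin d → ℤ)) j i : ℤ) : ℝ))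
        i).trans h3
      simp only [Equiv.coe_addRight, Pi.add_apply, Real.norm_eq_abs] at h4
      push_cast at h4
      rw [abs_le] at h4
      have a1 := Int.floor_le (θ i * A)
      have a2 := Int.lt_floor_add_one (θ i * A)
      have b1 := Int.floor_le (θ i * B)
      have b2 := Int.lt_floor_add_one (θ i * B)
      have c1 := Int.floor_le (θ i * C)
      have c2 := Int.lt_floor_add_one (θ i * C)
      have hMc := Int.le_ceil M
      rw [Finset.mem_Icc]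
      constructor
      · have : (-(m : ℝ)) ≤ (j i : ℝ) := by rw [hm]; push_cast; nlinarith [h4.1, h4.2]
        exact_mod_cast this
      · have : (j i : ℝ) ≤ (m : ℝ) := by rw [hm]; push_cast; nlinarith [h4.1, h4.2]
        exact_mod_cast this
    rw [this, zero_mul]

end Vale.Agent.P141.R2.H860
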