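import Vale.Agent.P141.R2.H860.Meas
import Vale.Agent.P141.R2.H152.Bound

/-!
# The truncated form with a two-step nilsequence
-/

namespace Vale.Agent.P141.R2.H860

open MeasureTheory Set Filter Topology Vale.Agent.P141.H97 Vale.Agent.P141.R2.H152
open scoped ContDiff

variable {d : ℕ}

/-- first structured factor -/
noncomputable def g1 (θ : Fin d → ℝ) (Q : Fin (d + 1) → Fin (d + 1) → ℝ) (l : Fin (d + 1) → ℝ)
    (ξ : EuclideanSpace ℝ (Fin d)) (z : ℝ × ℝ × ℝ) : ℂ :=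
  W1 θ Q l ξ (-z.2.1) (z.1 + z.2.1)

/-- second structured factor -/
noncomputable def g2 (θ : Fin d → ℝ) (Q : Fin (d + 1) → Fin (d + 1) → ℝ) (l : Fin (d + 1) → ℝ)
    (j : Fin d → ℤ) (ξ : EuclideanSpace ℝ (Fin d)) (z : ℝ × ℝ × ℝ) : ℂ :=
  W2 θ Q l j ξ (z.1 + z.2.1) (-z.2.1)

/-- third structured factor -/
noncomputable def g3 (θ : Fin d → ℝ) (Q : Fin (d + 1) → Fin (d + 1) → ℝ) (l : Fin (d + 1) → ℝ)
    (c : ℝ) (j : Fin d → ℤ) (ξ : EuclideanSpace ℝ (Fin d)) (z : ℝ × ℝ × ℝ) : ℂ :=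
  W0 θ Q l c j ξ (-z.2.1) (-z.2.2)

section

variable (θ : Fin d → ℝ) (Q : Fin (d + 1) → Fin (d + 1) → ℝ) (l : Fin (d + 1) → ℝ) (c : ℝ)
  (j : Fin d → ℤ) (ξ : EuclideanSpace ℝ (Fin d))

theorem one_g1 : One (g1 θ Q l ξ) :=
  ⟨W1_meas θ Q l measurable_const (by fun_prop) (by fun_prop), fun _ => (norm_W1 ..).le⟩

theorem one_g2 : One (g2 θ Q l j ξ) :=
  ⟨W2_meas θ Q l j measurable_const (by fun_prop) (by fun_prop), fun _ => (norm_W2 ..).le⟩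

theorem one_g3 : One (g3 θ Q l c j ξ) :=
  ⟨W0_meas θ Q l c j measurable_const (by fun_prop) (by fun_prop), fun _ => (norm_W0 ..).le⟩

/-- the product of the three factors -/
theorem GG_eq (x : ℝ) (h : ℝ × ℝ × ℝ) :
    GG (g1 θ Q l ξ) (g2 θ Q l j ξ) (g3 θ Q l c j ξ) x h
      = W0 θ Q l c j ξ (-h.1) (-h.2.1) * W1 θ Q l ξ (-h.2.1) (x + h.1 + h.2.1) *
        W2 θ Q l j ξ (x + h.1 + h.2.1) (-h.1) := by
  unfold GG g1 g2 g3
  simp only
  rw [show x + h.2.1 + h.1 = x + h.1 + h.2.1 by ring]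
  ring

/-- joint measurability -/
theorem GG_meas_joint : Measurable fun y : EuclideanSpace ℝ (Fin d) × E5 =>
    GG (g1 θ Q l y.1) (g2 θ Q l j y.1) (g3 θ Q l c j y.1) y.2.1.1 y.2.2 := by
  simp only [GG_eq]
  refine Measurable.mul (Measurable.mul ?_ ?_) ?_
  · exact W0_meas θ Q l c j measurable_fst (by fun_prop) (by fun_prop)
  · exact W1_meas θ Q l measurable_fst (by fun_prop) (by fun_prop)
  · exact W2_meas θ Q l j measurable_fst (by fun_prop) (by fun_prop)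

end

theorem q_integral {H : ℝ} (hH : 0 < H) : ∫ x, q H x = (H : ℂ) := by
  unfold q
  rw [integral_indicator measurableSet_Icc]
  simp [hH.le]

theorem qqq_integral {H : ℝ} (hH : 0 < H) : ∫ x, qqq H x = ((H ^ 3 : ℝ) : ℂ) := by
  unfold qqq
  rw [Measure.volume_eq_prod, integral_prod_mul (fun x => q H x)
    (fun y : ℝ × ℝ => q H y.1 * q H y.2), Measure.volume_eq_prod,
    integral_prod_mul (fun x => q H x) (fun x => q H x), q_integral hH]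
  push_cast
  ring

variable {ε R H c₁ c₂ c₃ : ℝ} {f₁ f₂ f₃ : ℝ → ℂ}

/-- **the form with a two-step nilsequence** -/
theorem nil_form (φ : (Fin d → ℝ) → ℂ) (hφ : ContDiff ℝ ∞ φ) (hφ' : HasCompactSupport φ) :
    ∃ C : ℝ, 0 ≤ C ∧ ∀ (θ : Fin d → ℝ) (Q : Fin (d + 1) → Fin (d + 1) → ℝ) (l : Fin (d + 1) → ℝ)
      (c : ℝ) (c₁ c₂ c₃ : ℝ) (f₁ f₂ f₃ : ℝ → ℂ), c₁ ≠ 0 → c₂ ≠ 0 → c₃ ≠ 0 → c₂ ≠ c₃ →
      Nice f₁ → Nice f₂ → Nice f₃ → ∀ ε R : ℝ, 0 < ε → ε < R →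
      ‖∫ p : ℝ × ℝ, nil φ θ Q l c p.1 * ph ε R c₁ c₂ c₃ f₁ f₂ f₃ p.1 p.2‖ ≤
        C * |c₁ * c₂ * c₃| ^ ((1 : ℝ) / 3) * (|c₁|⁻¹ + |c₂|⁻¹ + |c₃|⁻¹) *
          ((eLpNorm f₁ 3 volume).toReal * (eLpNorm f₂ 3 volume).toReal *
            (eLpNorm f₃ 3 volume).toReal) := by
  obtain ⟨J, ψ, hψ, -, hsp⟩ := nil_split φ hφ hφ'
  obtain ⟨C, hC0, hC⟩ := form
  have hI0 : 0 ≤ ∫ ξ, ‖ψ ξ‖ := integral_nonneg fun _ => norm_nonneg _
  refine ⟨(J.card : ℝ) * (∫ ξ, ‖ψ ξ‖) * C, by positivity, ?_⟩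
  intro θ Q l c c₁ c₂ c₃ f₁ f₂ f₃ n₁ n₂ n₃ n h₁ h₂ h₃ ε R hε hR
  set P : ℝ := (eLpNorm f₁ 3 volume).toReal * (eLpNorm f₂ 3 volume).toReal *
    (eLpNorm f₃ 3 volume).toReal with hP
  have hP0 : 0 ≤ P := by positivity
  set S : ℝ := |c₁|⁻¹ + |c₂|⁻¹ + |c₃|⁻¹ with hS
  set κ : ℝ := |c₁ * c₂ * c₃| ^ ((1 : ℝ) / 3) with hκ
  have hκ0 : 0 ≤ κ := by positivity
  have hS0 : 0 ≤ S := by positivity
  set X : ℂ := ∫ p : ℝ × ℝ, nil φ θ Q l c p.1 * ph ε R c₁ c₂ c₃ f₁ f₂ f₃ p.1 p.2 with hX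
  have hR0 : 0 < R := hε.trans hR
  -- the bound at scale `H`
  have main : ∀ H : ℝ, 0 < H → ‖X‖ ≤ (J.card : ℝ) * ((∫ ξ, ‖ψ ξ‖) * (C * κ * (R / H + S) * P)) := by
    intro H hH
    set D : (Fin d → ℤ) → EuclideanSpace ℝ (Fin d) → ℂ := fun j ξ =>
      ∫ p : ℝ × ℝ, dualFn H (g1 θ Q l ξ) (g2 θ Q l j ξ) (g3 θ Q l c j ξ) p.1 *
        ph ε R c₁ c₂ c₃ f₁ f₂ f₃ p.1 p.2 with hD
    set F : (Fin d → ℤ) → EuclideanSpace ℝ (Fin d) → E5 → ℂ := fun j ξ z =>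
      ψ ξ * Wf ε R H c₁ c₂ c₃ (g1 θ Q l ξ) (g2 θ Q l j ξ) (g3 θ Q l c j ξ) f₁ f₂ f₃ z with hF
    have hFi : ∀ j, Integrable (fun y : EuclideanSpace ℝ (Fin d) × E5 => F j y.1 y.2)
        ((volume : Measure (EuclideanSpace ℝ (Fin d))).prod (volume : Measure E5)) := by
      intro j
      have h5 := (ph_integrable (R := R) (c₁ := c₁) (c₂ := c₂) (c₃ := c₃) hε h₁ h₂ h₃).mul_prod
        (qqq_int H)
      rw [← Measure.volume_eq_prod] at h5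
      have h6 := hψ.mul_prod h5
      have hm : AEStronglyMeasurable (fun y : EuclideanSpace ℝ (Fin d) × E5 => F j y.1 y.2)
          ((volume : Measure (EuclideanSpace ℝ (Fin d))).prod (volume : Measure E5)) := by
        refine (hψ.aestronglyMeasurable.comp_fst).mul ?_
        have m1 : Measurable fun y : EuclideanSpace ℝ (Fin d) × E5 =>
            ph ε R c₁ c₂ c₃ f₁ f₂ f₃ y.2.1.1 y.2.1.2 :=
          (ph_meas h₁.meas h₂.meas h₃.meas).comp (measurable_fst.comp measurable_snd)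
        have m2 : Measurable fun y : EuclideanSpace ℝ (Fin d) × E5 => qqq H y.2.2 :=
          (qqq_meas H).comp (measurable_snd.comp measurable_snd)
        exact (m1.mul (m2.mul (GG_meas_joint θ Q l c j))).aestronglyMeasurable
      refine h6.mono hm (ae_of_all _ fun y => ?_)
      simp only [hF, Wf, norm_mul]
      refine mul_le_mul_of_nonneg_left ?_ (norm_nonneg _)
      refine mul_le_mul_of_nonneg_left ?_ (norm_nonneg _)
      exact mul_le_of_le_one_right (norm_nonneg _)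
        (GG_le (one_g1 θ Q l y.1) (one_g2 θ Q l j y.1) (one_g3 θ Q l c j y.1) _ _)
    have e1 : ∀ j, ∫ ξ, ψ ξ * (((H ^ 3 : ℝ) : ℂ) * D j ξ) = ∫ z : E5, ∫ ξ, F j ξ z := by
      intro j
      rw [← integral_integral_swap (f := F j) (hFi j)]
      refine integral_congr_ae (ae_of_all _ fun ξ => ?_)
      simp only [hF, hD]
      rw [integral_const_mul, Wf_eq hε hH (one_g1 θ Q l ξ) (one_g2 θ Q l j ξ)
        (one_g3 θ Q l c j ξ) h₁ h₂ h₃]
    have e2 : ∀ z : E5, ∑ j ∈ J, ∫ ξ, F j ξ z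
        = (nil φ θ Q l c z.1.1 * ph ε R c₁ c₂ c₃ f₁ f₂ f₃ z.1.1 z.1.2) * qqq H z.2 := by
      intro z
      have e3 := hsp θ Q l c (-z.2.1) (-z.2.2.1) (z.1.1 + z.2.1 + z.2.2.1)
      rw [show -z.2.1 + -z.2.2.1 + (z.1.1 + z.2.1 + z.2.2.1) = z.1.1 by ring] at e3
      rw [e3, mul_assoc, Finset.sum_mul]
      refine Finset.sum_congr rfl fun j _ => ?_
      rw [← integral_mul_const]
      refine integral_congr_ae (ae_of_all _ fun ξ => ?_)
      simp only [hF, Wf]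
      rw [GG_eq]
      ring
    have e4 : ((H ^ 3 : ℝ) : ℂ) * X = ∑ j ∈ J, ∫ ξ, ψ ξ * (((H ^ 3 : ℝ) : ℂ) * D j ξ) := by
      have hi : ∀ j ∈ J, Integrable (fun z : E5 => ∫ ξ, F j ξ z) volume :=
        fun j _ => (hFi j).integral_prod_right
      calc ((H ^ 3 : ℝ) : ℂ) * X
          = ∫ z : E5, (nil φ θ Q l c z.1.1 * ph ε R c₁ c₂ c₃ f₁ f₂ f₃ z.1.1 z.1.2) *
              qqq H z.2 := by
            rw [hX, ← qqq_integral hH, mul_comm]
            exact (integral_prod_mul (μ := (volume : Measure (ℝ × ℝ)))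
              (ν := (volume : Measure (ℝ × ℝ × ℝ)))
              (fun p : ℝ × ℝ => nil φ θ Q l c p.1 * ph ε R c₁ c₂ c₃ f₁ f₂ f₃ p.1 p.2)
              (fun y => qqq H y)).symm
        _ = ∫ z : E5, ∑ j ∈ J, ∫ ξ, F j ξ z := by
            simp only [e2]
        _ = ∑ j ∈ J, ∫ z : E5, ∫ ξ, F j ξ z := integral_finsetSum _ hi
        _ = _ := by
            refine Finset.sum_congr rfl fun j _ => ?_
            rw [e1]
    have hH3 : 0 < H ^ 3 := pow_pos hH 3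
    have e5 : X = ∑ j ∈ J, ∫ ξ, ψ ξ * D j ξ := by
      have hne : ((H ^ 3 : ℝ) : ℂ) ≠ 0 := by exact_mod_cast hH3.ne'
      apply mul_left_cancel₀ hne
      rw [e4, Finset.mul_sum]
      refine Finset.sum_congr rfl fun j _ => ?_
      rw [← integral_const_mul]
      refine integral_congr_ae (ae_of_all _ fun ξ => ?_)
      simp only
      ring
    rw [e5]
    refine (norm_sum_le _ _).trans ?_
    have e6 : ∀ j ∈ J, ‖∫ ξ, ψ ξ * D j ξ‖ ≤ (∫ ξ, ‖ψ ξ‖) * (C * κ * (R / H + S) * P) := by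
      intro j _
      have e7 : ∀ ξ, ‖D j ξ‖ ≤ C * κ * (R / H + S) * P := by
        intro ξ
        have := hC H c₁ c₂ c₃ _ _ _ f₁ f₂ f₃ hH n₁ n₂ n₃ n (one_g1 θ Q l ξ) (one_g2 θ Q l j ξ)
          (one_g3 θ Q l c j ξ) h₁ h₂ h₃ ε R hε hR
        rw [show R / H + S = R / H + |c₁|⁻¹ + |c₂|⁻¹ + |c₃|⁻¹ by rw [hS]; ring]
        exact this
      calc ‖∫ ξ, ψ ξ * D j ξ‖ ≤ ∫ ξ, ‖ψ ξ‖ * (C * κ * (R / H + S) * P) := by
            refine norm_integral_le_of_norm_le (hψ.norm.mul_const _) (ae_of_all _ fun ξ => ?_)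
            rw [norm_mul]
            exact mul_le_mul_of_nonneg_left (e7 ξ) (norm_nonneg _)
        _ = _ := integral_mul_const _ _
    refine (Finset.sum_le_sum e6).trans ?_
    rw [Finset.sum_const, nsmul_eq_mul]
  -- the limit `H → ∞`
  have hlim : Tendsto (fun H : ℝ => (J.card : ℝ) * ((∫ ξ, ‖ψ ξ‖) * (C * κ * (R / H + S) * P)))
      atTop (𝓝 ((J.card : ℝ) * ((∫ ξ, ‖ψ ξ‖) * (C * κ * (0 + S) * P)))) := by
    have h0 : Tendsto (fun H : ℝ => R / H) atTop (𝓝 0) :=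
      tendsto_const_nhds.div_atTop tendsto_id
    exact (((((h0.add_const S).const_mul (C * κ)).mul_const P).const_mul _).const_mul _)
  have hfin := ge_of_tendsto hlim (eventually_atTop.2 ⟨1, fun H hH => main H (by linarith)⟩)
  calc ‖X‖ ≤ _ := hfin
    _ = _ := by ring

end Vale.Agent.P141.R2.H860
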