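import Vale.Agent.P141.R2.H860.Link
import Vale.Agent.P141.R2.H898.CBD

/-!
# Functions with an absolutely convergent splitting in the triangular variables
-/

namespace Vale.Agent.P141.R2.H860

open MeasureTheory Set Filter Topology
open scoped ContDiff
open Vale.Agent.P141.H97 (ph Nice)
open Vale.Agent.P141.R2.H898 (FormU Bounds bounds_of CB CB_nil CB_dsum)

theorem formU_tens : FormU Tens := by
  obtain ⟨C, hC0, hC⟩ := abs_form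
  refine ⟨C, hC0, ?_⟩
  rintro h ⟨-, k, ι, J, ψ, U, V, W, hψ, hU, hV, hW, h1, hsp⟩ c₁ c₂ c₃ f₁ f₂ f₃ n₁ n₂ n₃ n m₁ m₂ m₃
    ε R hε hR
  refine (hC (Fin k) ι J ψ U V W h hψ hU hV hW hsp c₁ c₂ c₃ f₁ f₂ f₃ n₁ n₂ n₃ n m₁ m₂ m₃ ε R hε
    hR).trans ?_
  gcongr
  exact mul_le_of_le_one_left hC0 h1

theorem bounds_tens : Bounds Tens := bounds_of (fun _ hh => hh.1) formU_tens

/-- all four parts for the sums with real coefficients in all places -/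
theorem bounds_nil {d : ℕ} (φ : (Fin d → ℝ) → ℂ) (h1 : ContDiff ℝ ∞ φ)
    (h2 : HasCompactSupport φ) :
    Bounds {h : ℝ → ℂ | ∃ (θ : Fin d → ℝ) (Q : Fin (d + 1) → Fin (d + 1) → ℝ)
      (l : Fin (d + 1) → ℝ) (c : ℝ), h = nil φ θ Q l c} := by
  refine bounds_of ?_ ?_
  · rintro h ⟨θ, Q, l, c, rfl⟩
    exact CB_nil h1 h2 θ Q l c
  · obtain ⟨C, hC0, hC⟩ := nil_form φ h1 h2
    refine ⟨C, hC0, ?_⟩
    rintro h ⟨θ, Q, l, c, rfl⟩
    exact hC θ Q l c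

/-- all four parts for the double sums -/
theorem bounds_dsum {d m : ℕ} (Ψ : (Fin d ⊕ Fin m → ℝ) → ℂ) (h1 : ContDiff ℝ ∞ Ψ)
    (h2 : HasCompactSupport Ψ) :
    Bounds {h : ℝ → ℂ | ∃ (θ θ₀ : Fin d → ℝ) (Q : Fin m → Fin (d + 1) → Fin (d + 1) → ℝ)
      (l : Fin m → Fin (d + 1) → ℝ) (c : Fin m → ℝ), h = dsum Ψ θ θ₀ Q l c} := by
  refine bounds_of ?_ (formU_dsum Ψ h1 h2)
  rintro h ⟨θ, θ₀, Q, l, c, rfl⟩
  exact CB_dsum h1 h2 θ θ₀ Q l c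

end Vale.Agent.P141.R2.H860
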